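import Vale.Agent.H3.P069.Reflex

namespace Vale.Agent.H3.P069

open scoped ENNReal
open NormedSpace Filter Topology

theorem isEquivNorm_norm (E : Type) [NormedAddCommGroup E] [NormedSpace ℝ E] :
    IsEquivNorm (normSeminorm ℝ E) :=
  ⟨1, 1, one_pos, one_pos, fun x => by simp⟩

section
variable {E : ℕ → Type} [∀ n, NormedAddCommGroup (E n)] [∀ n, NormedSpace ℝ (E n)]
  (near far : ℕ → ∀ n, Submodule ℝ (E n))

/-- the near vectors at stage `N` -/
def NearX (N : ℕ) (x : lp E 2) : Prop := ∀ n, x n ∈ near N n ∧ (N < n → x n = 0)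

/-- the far vectors at stage `N` -/
def FarX (N : ℕ) (y : lp E 2) : Prop := ∀ n, n ≤ N → y n ∈ far N n

variable {near far}

theorem coe_add' (x y : lp E 2) (n : ℕ) : (x + y) n = x n + y n := by
  rw [lp.coeFn_add]; rfl

theorem coe_sub' (x y : lp E 2) (n : ℕ) : (x - y) n = x n - y n := by
  rw [lp.coeFn_sub]; rfl

theorem coe_smul' (r : ℝ) (x : lp E 2) (n : ℕ) : (r • x) n = r • x n := by
  rw [lp.coeFn_smul]; rfl

theorem coe_zero' (n : ℕ) : (0 : lp E 2) n = 0 := by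
  rw [lp.coeFn_zero]; rfl

theorem X_ineq (hineq : ∀ N n, ∀ x ∈ near N n, ∀ y ∈ far N n,
      ‖x‖ ^ 2 + ‖y‖ ^ 2 / 16 ≤ (‖x + y‖ ^ 2 + ‖x - y‖ ^ 2) / 2)
    {N : ℕ} {x y : lp E 2} (hx : NearX near N x) (hy : FarX far N y) :
    ‖x‖ ^ 2 + ‖y‖ ^ 2 / 16 ≤ (‖x + y‖ ^ 2 + ‖x - y‖ ^ 2) / 2 := by
  have h1 := (lp2_hasSum x).add ((lp2_hasSum y).div_const 16)
  have h2 := ((lp2_hasSum (x + y)).add (lp2_hasSum (x - y))).div_const 2
  refine hasSum_le (fun n => ?_) h1 h2
  rw [coe_add', coe_sub']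
  rcases le_or_gt n N with hn | hn
  · exact hineq N n _ (hx n).1 _ (hy n hn)
  · have h0 := (hx n).2 hn
    have e1 : x n + y n = y n := by rw [h0, zero_add]
    have e2 : x n - y n = - y n := by rw [h0, zero_sub]
    have e3 : ‖x n‖ = 0 := by rw [h0, norm_zero]
    rw [e1, e2, e3, norm_neg]
    nlinarith [sq_nonneg ‖y n‖]

/-- The map whose kernel is the far subspace. -/
noncomputable def farMap (far : ℕ → ∀ n, Submodule ℝ (E n)) (N : ℕ) :
    lp E 2 →ₗ[ℝ] (∀ n : Fin (N + 1), E n ⧸ far N n) :=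
  LinearMap.pi fun n => (far N n).mkQ.comp (lp.evalCLM ℝ E 2 (n : ℕ)).toLinearMap

theorem mem_ker_farMap {N : ℕ} {y : lp E 2} :
    y ∈ (farMap far N).ker ↔ FarX far N y := by
  rw [LinearMap.mem_ker]
  constructor
  · intro h n hn
    have h1 := congrFun h ⟨n, by omega⟩
    have h2 : (far N n).mkQ (y n) = 0 := h1
    rwa [Submodule.mkQ_apply, Submodule.Quotient.mk_eq_zero] at h2
  · intro h
    funext n
    change (far N n).mkQ (y n) = 0
    rw [Submodule.mkQ_apply, Submodule.Quotient.mk_eq_zero]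
    exact h n (by omega)

theorem far_mem_cof (hfar : ∀ N n, far N n ∈ Cof (E n)) (N : ℕ) :
    (farMap far N).ker ∈ Cof (lp E 2) := by
  refine ⟨?_, ?_⟩
  · have : ((farMap far N).ker : Set (lp E 2)) =
        ⋂ n : Fin (N + 1), (lp.evalCLM ℝ E 2 (n : ℕ)) ⁻¹' (far N n : Set (E n)) := by
      ext y
      rw [SetLike.mem_coe, mem_ker_farMap, Set.mem_iInter]
      constructor
      · intro h n
        exact h n (by omega)
      · intro h n hn
        exact h ⟨n, by omega⟩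
    rw [this]
    exact isClosed_iInter fun n => (hfar N n).1.preimage (lp.evalCLM ℝ E 2 (n : ℕ)).continuous
  · have : ∀ n : Fin (N + 1), FiniteDimensional ℝ (E n ⧸ far N n) := fun n => (hfar N n).2
    exact LinearEquiv.finiteDimensional ((farMap far N).quotKerEquivRange).symm

theorem NearX.mono (hmono : ∀ N M, N ≤ M → ∀ n, near N n ≤ near M n) {N M : ℕ} (h : N ≤ M)
    {x : lp E 2} (hx : NearX near N x) : NearX near M x := fun n =>
  ⟨hmono N M h n (hx n).1, fun hn => (hx n).2 (by omega)⟩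

/-- The near vectors form a subspace. -/
def nearSub (near : ℕ → ∀ n, Submodule ℝ (E n))
    (hmono : ∀ N M, N ≤ M → ∀ n, near N n ≤ near M n) : Submodule ℝ (lp E 2) where
  carrier := {x | ∃ N, NearX near N x}
  zero_mem' := ⟨0, fun n => ⟨by rw [coe_zero']; exact Submodule.zero_mem _,
    fun _ => coe_zero' n⟩⟩
  add_mem' := by
    rintro x y ⟨N, hN⟩ ⟨M, hM⟩
    refine ⟨max N M, fun n => ?_⟩
    have h1 := hN.mono hmono (le_max_left N M) n
    have h2 := hM.mono hmono (le_max_right N M) n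
    rw [coe_add']
    exact ⟨Submodule.add_mem _ h1.1 h2.1, fun hn => by rw [h1.2 hn, h2.2 hn, add_zero]⟩
  smul_mem' := by
    rintro r x ⟨N, hN⟩
    refine ⟨N, fun n => ?_⟩
    rw [coe_smul']
    exact ⟨Submodule.smul_mem _ _ (hN n).1, fun hn => by rw [(hN n).2 hn, smul_zero]⟩

theorem mem_closure_near (hmono : ∀ N M, N ≤ M → ∀ n, near N n ≤ near M n)
    (hdense : ∀ n (x : E n), x ∈ closure {z : E n | ∃ N, z ∈ near N n}) (x : lp E 2) :
    x ∈ (nearSub near hmono).topologicalClosure := by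
  have h1 := lp.hasSum_single (p := 2) (by norm_num) x
  refine (nearSub near hmono).isClosed_topologicalClosure.mem_of_tendsto h1
    (Eventually.of_forall fun s => ?_)
  refine Submodule.sum_mem _ fun n _ => ?_
  have hmaps : Set.MapsTo (lp.singleContinuousLinearMap ℝ E 2 n)
      {z : E n | ∃ N, z ∈ near N n} (nearSub near hmono : Set (lp E 2)) := by
    rintro z ⟨N, hN⟩
    refine ⟨max n N, fun m => ?_⟩
    by_cases hmn : m = n
    · subst hmn
      refine ⟨?_, fun h => ?_⟩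
      · change lp.single 2 m z m ∈ _
        rw [lp.single_apply_self]
        exact hmono _ _ (le_max_right _ _) _ hN
      · have := le_max_left m N
        omega
    · have : (lp.singleContinuousLinearMap ℝ E 2 n z) m = 0 := lp.single_apply_ne _ _ _ hmn
      rw [this]
      exact ⟨Submodule.zero_mem _, fun _ => rfl⟩
  have := hmaps.closure (lp.singleContinuousLinearMap ℝ E 2 n).continuous (hdense n (x n))
  exact this

theorem exists_near (hmono : ∀ N M, N ≤ M → ∀ n, near N n ≤ near M n)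
    (hdense : ∀ n (x : E n), x ∈ closure {z : E n | ∃ N, z ∈ near N n})
    (x : lp E 2) {η : ℝ} (hη : 0 < η) :
    ∃ N, ∃ x' : lp E 2, NearX near N x' ∧ ‖x - x'‖ < η := by
  have h' : x ∈ closure (nearSub near hmono : Set (lp E 2)) := mem_closure_near hmono hdense x
  obtain ⟨x', ⟨N, hN⟩, hd⟩ := Metric.mem_closure_iff.1 h' η hη
  exact ⟨N, x', hN, by rwa [dist_eq_norm] at hd⟩

theorem amuc_aux (hmono : ∀ N M, N ≤ M → ∀ n, near N n ≤ near M n)
    (hdense : ∀ n (x : E n), x ∈ closure {z : E n | ∃ N, z ∈ near N n})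
    (hfar : ∀ N n, far N n ∈ Cof (E n))
    (hineq : ∀ N n, ∀ x ∈ near N n, ∀ y ∈ far N n,
      ‖x‖ ^ 2 + ‖y‖ ^ 2 / 16 ≤ (‖x + y‖ ^ 2 + ‖x - y‖ ^ 2) / 2)
    {t : ℝ} (ht : 0 < t) {x : lp E 2} (hx : ‖x‖ = 1) {η : ℝ} (hη : 0 < η) (hη1 : η < 1) :
    ∃ F ∈ Cof (lp E 2), ∀ y ∈ F, ‖y‖ = 1 →
      Real.sqrt (1 + t ^ 2 / 16) - 2 * η ≤ max ‖x + t • y‖ ‖x - t • y‖ := by
  obtain ⟨N, x', hN, hxx⟩ := exists_near hmono hdense x hη
  refine ⟨(farMap far N).ker, far_mem_cof hfar N, fun y hy hy1 => ?_⟩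
  have hty : FarX far N (t • y) := mem_ker_farMap.1 (Submodule.smul_mem _ t hy)
  have h1 := X_ineq hineq hN hty
  have hnty : ‖t • y‖ = t := by rw [norm_smul, hy1, mul_one, Real.norm_eq_abs, abs_of_pos ht]
  rw [hnty] at h1
  set c := Real.sqrt (1 + t ^ 2 / 16) with hc
  have hc0 : (0:ℝ) ≤ 1 + t ^ 2 / 16 := by positivity
  have hcsq : c ^ 2 = 1 + t ^ 2 / 16 := Real.sq_sqrt hc0
  have hc1 : 1 ≤ c := by
    rw [hc, Real.one_le_sqrt]
    nlinarith [sq_nonneg t]
  have hx' : 1 - η ≤ ‖x'‖ := by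
    have := norm_sub_norm_le x x'
    linarith
  have hx'2 : (1 - η) ^ 2 ≤ ‖x'‖ ^ 2 := pow_le_pow_left₀ (by linarith) hx' 2
  set m := max ‖x' + t • y‖ ‖x' - t • y‖ with hm
  have hm1 : ‖x' + t • y‖ ≤ m := le_max_left _ _
  have hm2 : ‖x' - t • y‖ ≤ m := le_max_right _ _
  have hm0 : 0 ≤ m := (norm_nonneg _).trans hm1
  have hm1' : ‖x' + t • y‖ ^ 2 ≤ m ^ 2 := pow_le_pow_left₀ (norm_nonneg _) hm1 2
  have hm2' : ‖x' - t • y‖ ^ 2 ≤ m ^ 2 := pow_le_pow_left₀ (norm_nonneg _) hm2 2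
  have h2 : (c - η) ^ 2 ≤ m ^ 2 := by nlinarith
  have h3 : c - η ≤ m := le_of_sq_le_sq h2 hm0
  have h4 : m ≤ max ‖x + t • y‖ ‖x - t • y‖ + η := by
    refine max_le ?_ ?_
    · have e : x' + t • y = (x + t • y) - (x - x') := by abel
      rw [e]
      refine (norm_sub_le _ _).trans ?_
      have := le_max_left ‖x + t • y‖ ‖x - t • y‖
      linarith
    · have e : x' - t • y = (x - t • y) - (x - x') := by abel
      rw [e]
      refine (norm_sub_le _ _).trans ?_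
      have := le_max_right ‖x + t • y‖ ‖x - t • y‖
      linarith
  linarith

theorem isAMUC_lp2 (hmono : ∀ N M, N ≤ M → ∀ n, near N n ≤ near M n)
    (hdense : ∀ n (x : E n), x ∈ closure {z : E n | ∃ N, z ∈ near N n})
    (hfar : ∀ N n, far N n ∈ Cof (E n))
    (hineq : ∀ N n, ∀ x ∈ near N n, ∀ y ∈ far N n,
      ‖x‖ ^ 2 + ‖y‖ ^ 2 / 16 ≤ (‖x + y‖ ^ 2 + ‖x - y‖ ^ 2) / 2) :
    IsAMUC (normSeminorm ℝ (lp E 2)) := by
  intro t ht
  set c := Real.sqrt (1 + t ^ 2 / 16) with hc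
  have hc1 : 1 < c := by
    rw [hc, Real.lt_sqrt (by norm_num)]
    nlinarith [sq_pos_of_pos ht]
  set η := min ((c - 1) / 4) (1 / 2) with hη
  have hη0 : 0 < η := lt_min (by linarith) (by norm_num)
  have hη1 : η < 1 := (min_le_right _ _).trans_lt (by norm_num)
  have hη2 : η ≤ (c - 1) / 4 := min_le_left _ _
  have hpos : (0 : EReal) < (((c - 1) / 2 : ℝ) : EReal) := by
    rw [← EReal.coe_zero, EReal.coe_lt_coe_iff]
    linarith
  refine hpos.trans_le ?_
  unfold amucModulus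
  refine le_iInf₂ fun x hx => ?_
  have hx' : ‖x‖ = 1 := hx
  obtain ⟨F, hF, hFy⟩ := amuc_aux hmono hdense hfar hineq ht hx' hη0 hη1
  refine le_iSup₂_of_le F hF (le_iInf₂ fun y hy => ?_)
  have hy1 : ‖y‖ = 1 := hy.2
  have := hFy y hy.1 hy1
  rw [EReal.coe_le_coe_iff]
  simp only [coe_normSeminorm]
  linarith

end

end Vale.Agent.H3.P069
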