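import Vale.Agent.H3.P069.Reflex

namespace Vale.Agent.H3.P069

open scoped ENNReal
open NormedSpace Filter Topology

variable {E : Type} [NormedAddCommGroup E] [NormedSpace ℝ E]

theorem exists_close {F : Submodule ℝ E} (hF : F ∈ Cof E) {e : ℕ → E}
    (he : ∀ Λ : StrongDual ℝ E, Tendsto (fun j => Λ (e j)) atTop (𝓝 0))
    {ε : ℝ} (hε : 0 < ε) : ∃ j, ∃ y ∈ F, ‖e j - y‖ < ε := by
  have hcl : IsClosed (F : Set E) := hF.1
  have hfd : FiniteDimensional ℝ (E ⧸ F) := hF.2
  let b := Module.finBasis ℝ (E ⧸ F)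
  have hcoord : ∀ i, Tendsto (fun j => b.coord i (F.mkQ (e j))) atTop (𝓝 0) := by
    intro i
    exact he ((LinearMap.toContinuousLinearMap (b.coord i)).comp F.mkQL)
  have hlim : Tendsto (fun j => F.mkQ (e j)) atTop (𝓝 0) := by
    have h1 : Tendsto (fun j => ∑ i, b.coord i (F.mkQ (e j)) • b i) atTop
        (𝓝 (∑ i, (0 : ℝ) • b i)) :=
      tendsto_finsetSum _ fun i _ => (hcoord i).smul_const (b i)
    have h2 : ∀ j, ∑ i, b.coord i (F.mkQ (e j)) • b i = F.mkQ (e j) := by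
      intro j
      exact b.sum_repr _
    simp only [h2, zero_smul, Finset.sum_const_zero] at h1
    exact h1
  have hev : ∀ᶠ j in atTop, ‖F.mkQ (e j)‖ < ε / 2 := by
    have := hlim.norm
    rw [norm_zero] at this
    exact this.eventually (gt_mem_nhds (by positivity))
  obtain ⟨j, hj⟩ := hev.exists
  obtain ⟨m, hm1, hm2⟩ := Submodule.Quotient.norm_mk_lt (F.mkQ (e j)) (half_pos hε)
  refine ⟨j, e j - m, ?_, ?_⟩
  · have : (Submodule.Quotient.mk (e j) : E ⧸ F) = Submodule.Quotient.mk m := by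
      rw [hm1]; rfl
    exact (Submodule.Quotient.eq F).1 this
  · have : e j - (e j - m) = m := by abel
    rw [this]
    linarith

theorem growth {N : Seminorm ℝ E} {a b : ℝ} (ha : 0 < a) (hb : 0 < b)
    (hN : ∀ x, a * ‖x‖ ≤ N x ∧ N x ≤ b * ‖x‖) (hauc : IsAUC N) :
    ∃ δ : ℝ, 0 < δ ∧ ∀ x : E, a ≤ N x → N x ≤ b → ∀ e : ℕ → E,
      (∀ Λ : StrongDual ℝ E, Tendsto (fun j => Λ (e j)) atTop (𝓝 0)) → (∀ j, 1 ≤ ‖e j‖) →
      ∃ j, (1 + δ) * N x ≤ N (x + e j) := by
  set t0 := a / (2 * b) with ht0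
  have ht0pos : 0 < t0 := by positivity
  obtain ⟨δ, hδ1, hδ2⟩ := EReal.lt_iff_exists_real_btwn.1 (hauc t0 ht0pos)
  have hδ : 0 < δ := by
    rw [← EReal.coe_zero, EReal.coe_lt_coe_iff] at hδ1
    exact hδ1
  refine ⟨δ / 2, by positivity, fun x hxa hxb e he he1 => ?_⟩
  have hNx : 0 < N x := ha.trans_le hxa
  have hnorm : ∀ z : E, 0 < N z → ∃ w : E, N w = 1 ∧ z = N z • w ∧
      (∀ F : Submodule ℝ E, z ∈ F → w ∈ F) := by
    intro z hz
    refine ⟨(N z)⁻¹ • z, ?_, ?_, fun F hF => F.smul_mem _ hF⟩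
    · rw [map_smul_eq_mul, Real.norm_eq_abs, abs_of_pos (by positivity),
        inv_mul_cancel₀ hz.ne']
    · rw [smul_smul, mul_inv_cancel₀ hz.ne', one_smul]
  obtain ⟨xh, hNxh, hxx, -⟩ := hnorm x hNx
  have h1 : (δ : EReal) < ⨆ F ∈ Cof E, ⨅ y ∈ {y : E | y ∈ F ∧ N y = 1},
      ((N (xh + t0 • y) - 1 : ℝ) : EReal) :=
    hδ2.trans_le (iInf₂_le xh hNxh)
  obtain ⟨F, hF⟩ := lt_iSup_iff.1 h1
  obtain ⟨hFc, hF⟩ := lt_iSup_iff.1 hF
  have hFy : ∀ y ∈ F, N y = 1 → 1 + δ ≤ N (xh + t0 • y) := by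
    intro y hy hy1
    have := hF.trans_le (iInf₂_le y ⟨hy, hy1⟩)
    rw [EReal.coe_lt_coe_iff] at this
    linarith
  set ε := min (a / (2 * b)) (a * δ / (2 * b)) with hε
  have hεpos : 0 < ε := lt_min (by positivity) (by positivity)
  obtain ⟨j, y, hyF, hjy⟩ := exists_close hFc he hεpos
  refine ⟨j, ?_⟩
  have hd : N (e j - y) ≤ b * ε := ((hN _).2).trans (mul_le_mul_of_nonneg_left hjy.le hb.le)
  have hd1 : N (e j - y) ≤ a / 2 := by
    refine hd.trans ?_
    have : b * ε ≤ b * (a / (2 * b)) := mul_le_mul_of_nonneg_left (min_le_left _ _) hb.le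
    refine this.trans (le_of_eq ?_)
    field_simp
  have hd2 : N (e j - y) ≤ a * δ / 2 := by
    refine hd.trans ?_
    have : b * ε ≤ b * (a * δ / (2 * b)) := mul_le_mul_of_nonneg_left (min_le_right _ _) hb.le
    refine this.trans (le_of_eq ?_)
    field_simp
  have hNe : a ≤ N (e j) := by
    have := (hN (e j)).1
    have h2 := he1 j
    nlinarith
  have hNy : a / 2 ≤ N y := by
    have h3 : N (e j) ≤ N (e j - y) + N y := by
      have := map_add_le_add N (e j - y) y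
      rwa [sub_add_cancel] at this
    linarith
  have hNy0 : 0 < N y := by linarith
  set τ := N y / N x with hτ
  have hτt : t0 ≤ τ := by
    rw [ht0, hτ, div_le_div_iff₀ (by positivity) hNx]
    nlinarith
  have hτ0 : 0 < τ := ht0pos.trans_le hτt
  obtain ⟨yh, hNyh, hyy, hyhF'⟩ := hnorm y hNy0
  have hyhF : yh ∈ F := hyhF' F hyF
  have hkey := hFy yh hyhF hNyh
  set M := N (xh + τ • yh) with hM
  set s := t0 / τ with hs
  have hs0 : 0 < s := by positivity
  have hs1 : s ≤ 1 := by rw [hs, div_le_one hτ0]; exact hτt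
  have hconv : N (xh + t0 • yh) ≤ (1 - s) * 1 + s * M := by
    have e1 : xh + t0 • yh = (1 - s) • xh + s • (xh + τ • yh) := by
      have h9 : s * τ = t0 := by rw [hs]; field_simp
      rw [smul_add, smul_smul, h9, ← add_assoc, ← add_smul]
      simp
    rw [e1]
    refine (map_add_le_add N _ _).trans ?_
    rw [map_smul_eq_mul N (1 - s) xh, map_smul_eq_mul N s (xh + τ • yh), Real.norm_eq_abs,
      Real.norm_eq_abs, abs_of_nonneg (show (0:ℝ) ≤ 1 - s by linarith), abs_of_pos hs0, hNxh]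
  have hMd : 1 + δ ≤ M := by
    have h4 : δ ≤ s * (M - 1) := by nlinarith
    have h5 : 0 < M - 1 := by
      by_contra hcon
      push Not at hcon
      nlinarith
    nlinarith
  have hxy : N (x + y) = N x * M := by
    have h9 : N x * τ = N y := by rw [hτ]; field_simp
    have h10 : x + y = N x • (xh + τ • yh) := by
      rw [smul_add, smul_smul, h9, ← hxx, ← hyy]
    rw [h10, map_smul_eq_mul, Real.norm_eq_abs, abs_of_pos hNx]
  have hfin : N (x + y) ≤ N (x + e j) + N (e j - y) := by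
    have h6 : x + y = (x + e j) - (e j - y) := by abel
    rw [h6]
    exact map_sub_le_add N _ _
  have h7 : N x * (1 + δ) ≤ N x * M := mul_le_mul_of_nonneg_left hMd hNx.le
  have h8 : a * δ / 2 ≤ N x * δ / 2 := by nlinarith
  rw [hxy] at hfin
  nlinarith

/-- The abstract obstruction to AUC renormability: bounded well separated weakly null trees of
arbitrary height. -/
theorem not_aucRenormable (e s : ℕ → List ℕ → E)
    (h0 : ∀ n, s n [] = e n [])
    (hs : ∀ n j t, s n (j :: t) = s n t + e n (j :: t))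
    (hs1 : ∀ n t, t.length ≤ n → ‖s n t‖ ≤ 1)
    (he1 : ∀ n t, 1 ≤ ‖e n t‖)
    (hw : ∀ n t (Λ : StrongDual ℝ E), Tendsto (fun j => Λ (e n (j :: t))) atTop (𝓝 0)) :
    ¬ AUCRenormable E := by
  rintro ⟨N, ⟨a, b, ha, hb, hN⟩, hauc⟩
  obtain ⟨δ, hδ, hgrow⟩ := growth ha hb hN hauc
  have key : ∀ n k, k ≤ n → ∃ t : List ℕ, t.length = k ∧ a * (1 + δ) ^ k ≤ N (s n t) := by
    intro n k
    induction k with
    | zero =>
      intro _
      refine ⟨[], rfl, ?_⟩
      rw [pow_zero, mul_one, h0]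
      have := (hN (e n [])).1
      have h1 := he1 n []
      nlinarith
    | succ k ih =>
      intro hk
      obtain ⟨t, ht, htN⟩ := ih (by omega)
      have hxa : a ≤ N (s n t) := by
        refine le_trans ?_ htN
        have : 1 ≤ (1 + δ) ^ k := one_le_pow₀ (by linarith)
        nlinarith
      have hxb : N (s n t) ≤ b := by
        have h1 := (hN (s n t)).2
        have h2 := hs1 n t (by omega)
        nlinarith
      obtain ⟨j, hj⟩ := hgrow (s n t) hxa hxb (fun j => e n (j :: t)) (hw n t)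
        (fun j => he1 n _)
      refine ⟨j :: t, by simp [ht], ?_⟩
      rw [hs]
      refine le_trans ?_ hj
      rw [pow_succ]
      nlinarith
  obtain ⟨n, hn⟩ := pow_unbounded_of_one_lt (b / a) (show 1 < 1 + δ by linarith)
  obtain ⟨t, ht, htN⟩ := key n n le_rfl
  have h1 := (hN (s n t)).2
  have h2 := hs1 n t ht.le
  rw [div_lt_iff₀ ha] at hn
  nlinarith

theorem not_finiteDimensional (e : ℕ → E) (he1 : ∀ j, 1 ≤ ‖e j‖)
    (hw : ∀ Λ : StrongDual ℝ E, Tendsto (fun j => Λ (e j)) atTop (𝓝 0)) :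
    ¬ FiniteDimensional ℝ E := by
  intro hfd
  have hbot : (⊥ : Submodule ℝ E) ∈ Cof E := by
    refine ⟨?_, inferInstance⟩
    have : ((⊥ : Submodule ℝ E) : Set E) = {0} := rfl
    rw [this]
    exact isClosed_singleton
  obtain ⟨j, y, hy, hj⟩ := exists_close hbot hw one_pos
  rw [Submodule.mem_bot] at hy
  rw [hy, sub_zero] at hj
  exact absurd (he1 j) (not_le.2 hj)

end Vale.Agent.H3.P069
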