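import Vale.Agent.H3.P069.Space
import Vale.Agent.H3.P069.Sum
import Vale.Agent.H3.P069.Tree

namespace Vale.Agent.H3.P069

open scoped ENNReal
open NormedSpace Filter Topology

/-! ### The near nodes -/

/-- Nodes of length at most `N` with entries below `N`. -/
def AN (N : ℕ) : Set (List ℕ) := {l | l.length ≤ N ∧ ∀ j ∈ l, j < N}

theorem AN_tail (N : ℕ) : ∀ j l, (j :: l) ∈ AN N → l ∈ AN N := by
  intro j l h
  refine ⟨?_, fun i hi => h.2 i (List.mem_cons_of_mem _ hi)⟩
  have := h.1
  rw [List.length_cons] at this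
  omega

theorem AN_mono {N M : ℕ} (h : N ≤ M) : AN N ⊆ AN M := fun _ hl =>
  ⟨hl.1.trans h, fun j hj => (hl.2 j hj).trans_le h⟩

theorem finite_aux (N k : ℕ) : Set.Finite {l : List ℕ | l.length ≤ k ∧ ∀ j ∈ l, j < N} := by
  induction k with
  | zero =>
    refine (Set.finite_singleton ([] : List ℕ)).subset ?_
    rintro l ⟨hl, _⟩
    simpa using hl
  | succ k ih =>
    have h1 : Set.Finite (Set.image2 List.cons (Set.Iio N)
        {l : List ℕ | l.length ≤ k ∧ ∀ j ∈ l, j < N}) := (Set.finite_Iio N).image2 _ ih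
    refine (h1.union (Set.finite_singleton ([] : List ℕ))).subset ?_
    rintro l ⟨hl, hl2⟩
    cases l with
    | nil => right; rfl
    | cons j l =>
      left
      refine ⟨j, hl2 j (by simp), l, ⟨?_, fun i hi => hl2 i (List.mem_cons_of_mem _ hi)⟩, rfl⟩
      rw [List.length_cons] at hl
      omega

theorem AN_finite (N : ℕ) : (AN N).Finite := finite_aux N N

theorem mem_AN_of (t : List ℕ) : ∃ N, t ∈ AN N := by
  refine ⟨t.length + t.sum + 1, by omega, fun j hj => ?_⟩
  have := List.single_le_sum (fun x _ => Nat.zero_le x) j hj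
  omega

/-- basis vectors of `H` -/
noncomputable def eH (t : List ℕ) : H := lp.single 2 t (1 : ℝ)

theorem eH_self (t : List ℕ) : eH t t = 1 := lp.single_apply_self _ _ _

theorem eH_ne {t s : List ℕ} (h : s ≠ t) : eH t s = 0 := lp.single_apply_ne _ _ _ h

theorem norm_eH (t : List ℕ) : ‖eH t‖ = 1 := by
  unfold eH
  rw [lp.norm_single (by norm_num)]; simp

theorem sum_single_H (A : Set (List ℕ)) (hA : A.Finite) (h : H) (h0 : ∀ t, t ∉ A → h t = 0) :
    h = ∑ t ∈ hA.toFinset, h t • eH t := by
  ext s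
  rw [lp.coeFn_sum]
  rw [Finset.sum_apply]
  have : ∀ t, (h t • eH t : H) s = h t * eH t s := by
    intro t
    rw [lp.coeFn_smul]; rfl
  simp only [this]
  by_cases hs : s ∈ A
  · rw [Finset.sum_eq_single s]
    · rw [eH_self, mul_one]
    · intro t _ hts
      rw [eH_ne (Ne.symm hts), mul_zero]
    · intro hh
      exact absurd (hA.mem_toFinset.2 hs) hh
  · rw [h0 s hs, Finset.sum_eq_zero]
    intro t ht
    have : s ≠ t := by rintro rfl; exact hs (hA.mem_toFinset.1 ht)
    rw [eH_ne this, mul_zero]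

/-- The near subspaces of the blocks. -/
def nearB (N n : ℕ) : Submodule ℝ (XB n) where
  carrier := {x | Near (AN N) x}
  zero_mem' := fun h _ => rfl
  add_mem' := by
    intro x y hx hy h hh
    rw [add_apply, hx h hh, hy h hh, add_zero]
  smul_mem' := by
    intro r x hx h hh
    rw [smul_apply, hx h hh, smul_zero]

section Ev
variable {E ι : Type} [NormedAddCommGroup E] [NormedSpace ℝ E]

/-- The joint kernel of a family of functionals. -/
noncomputable def evKer (Λ : ι → StrongDual ℝ E) : Submodule ℝ E :=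
  (LinearMap.pi fun i => (Λ i).toLinearMap : E →ₗ[ℝ] (ι → ℝ)).ker

theorem mem_evKer {Λ : ι → StrongDual ℝ E} {y : E} : y ∈ evKer Λ ↔ ∀ i, Λ i y = 0 := by
  unfold evKer
  rw [LinearMap.mem_ker]
  constructor
  · intro h i
    exact congrFun h i
  · intro h
    funext i
    exact h i

theorem evKer_mem_cof [Finite ι] (Λ : ι → StrongDual ℝ E) : evKer Λ ∈ Cof E := by
  refine ⟨?_, ?_⟩
  · have : (evKer Λ : Set E) = ⋂ i, (Λ i) ⁻¹' {0} := by
      ext y
      rw [SetLike.mem_coe, mem_evKer, Set.mem_iInter]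
      rfl
    rw [this]
    exact isClosed_iInter fun i => isClosed_singleton.preimage (Λ i).continuous
  · exact LinearEquiv.finiteDimensional
      (LinearMap.pi fun i => (Λ i).toLinearMap : E →ₗ[ℝ] (ι → ℝ)).quotKerEquivRange.symm

end Ev

/-- The far subspaces of the blocks. -/
noncomputable def farB (N n : ℕ) : Submodule ℝ (XB n) :=
  evKer (E := XB n) (fun t : AN N => inclusionInDoubleDual ℝ (Z n) (J n (eH t)))

theorem mem_farB {N n : ℕ} {y : XB n} (hy : y ∈ farB N n) : ∀ t ∈ AN N, y (J n (eH t)) = 0 :=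
  fun t ht => (mem_evKer (E := XB n).1 hy) (⟨t, ht⟩ : AN N)

theorem far_of_mem {N n : ℕ} {y : XB n} (hy : y ∈ farB N n) : Far (AN N) y := by
  have hy := mem_farB hy
  intro h h0
  rw [sum_single_H (AN N) (AN_finite N) h h0, map_sum, map_sum]
  refine Finset.sum_eq_zero fun t ht => ?_
  rw [map_smul, map_smul, hy t ((AN_finite N).mem_toFinset.1 ht), smul_zero]

theorem farB_mem_cof (N n : ℕ) : farB N n ∈ Cof (XB n) :=
  have hfin : Finite (AN N) := AN_finite N
  evKer_mem_cof (E := XB n) _

theorem nearB_mono (N M : ℕ) (h : N ≤ M) (n : ℕ) : nearB N n ≤ nearB M n :=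
  fun _ hx g hg => hx g fun t ht => hg t (AN_mono h ht)

/-- The map from `H` to the block, given by the inner product. -/
noncomputable def R (n : ℕ) : H →L[ℝ] XB n :=
  ((ContinuousLinearMap.compL ℝ (Z n) H ℝ).flip (Q n)).comp (innerSL ℝ : H →L[ℝ] H →L[ℝ] ℝ)

theorem R_apply (n : ℕ) (a : H) (z : Z n) : R n a z = inner ℝ a (Q n z) := rfl

theorem R_surj (n : ℕ) : Function.Surjective (R n) := by
  intro φ
  obtain ⟨a, ha⟩ := (InnerProductSpace.toDual ℝ H).surjective (φ.comp (J n))
  refine ⟨a, ?_⟩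
  ext z
  rw [R_apply]
  have := congrArg (fun ψ => ψ (Q n z)) ha
  simp only [InnerProductSpace.toDual_apply_apply, ContinuousLinearMap.comp_apply, J_Q] at this
  exact this

theorem R_eH (n : ℕ) (t : List ℕ) (z : Z n) : R n (eH t) z = Q n z t := by
  rw [R_apply, eH, lp.inner_single_left]
  simp

theorem dense_near (n : ℕ) (x : XB n) : x ∈ closure {z : XB n | ∃ N, z ∈ nearB N n} := by
  obtain ⟨a, rfl⟩ := R_surj n x
  have h1 := lp.hasSum_single (p := 2) (by norm_num) a
  have h2 := h1.mapL (R n)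
  refine mem_closure_of_tendsto h2 (Eventually.of_forall fun s => ?_)
  induction s using Finset.induction_on with
  | empty => exact ⟨0, Submodule.zero_mem _⟩
  | insert t s hts ih =>
    obtain ⟨N, hN⟩ := ih
    obtain ⟨M, hM⟩ := mem_AN_of t
    refine ⟨max N M, ?_⟩
    rw [Finset.sum_insert hts]
    refine Submodule.add_mem _ ?_ (nearB_mono _ _ (le_max_left _ _) n hN)
    have e : (lp.single 2 t (a t) : H) = a t • eH t := by
      rw [eH, ← lp.single_smul]; simp
    rw [e, map_smul]
    refine Submodule.smul_mem _ _ ?_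
    intro g hg
    rw [R_eH, Q_J]
    exact hg t (AN_mono (le_max_right _ _) hM)

theorem isAMUC_X : IsAMUC (normSeminorm ℝ X) :=
  isAMUC_lp2 (E := XB) (near := nearB) (far := farB) nearB_mono dense_near farB_mem_cof
    (fun N _ _ hx _ hy => block_ineq (AN_tail N) hx (far_of_mem hy))

/-! ### The trees -/

/-- the branch vector -/
noncomputable def bH : List ℕ → H
  | [] => eH []
  | (j :: l) => eH (j :: l) + bH l

theorem inner_eH (t : List ℕ) (c : H) : inner ℝ (eH t) c = c t := by
  rw [eH, lp.inner_single_left]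
  simp

theorem inner_bH (t : List ℕ) (c : H) : inner ℝ (bH t) c = pot c t := by
  induction t with
  | nil => exact inner_eH [] c
  | cons j l ih =>
    rw [bH, inner_add_left, ih, inner_eH]; rfl

theorem norm_R_bH {n : ℕ} {t : List ℕ} (ht : t.length ≤ n) : ‖R n (bH t)‖ ≤ 1 := by
  refine ContinuousLinearMap.opNorm_le_bound _ zero_le_one fun z => ?_
  rw [R_apply, inner_bH, one_mul, Real.norm_eq_abs]
  refine (abs_pot_le_L (Q n z) ht).trans ?_
  have h1 : ‖L n (Q n z)‖ ≤ ‖J n (Q n z)‖ := le_max_right _ _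
  rwa [J_Q] at h1

theorem pot_eH (t s : List ℕ) : pot (eH t) s = if t <:+ s then 1 else 0 := by
  induction s with
  | nil =>
    rw [pot_nil]
    split_ifs with h
    · have : t = [] := by simpa using h
      rw [this, eH_self]
    · refine eH_ne ?_
      rintro rfl
      exact h List.suffix_rfl
  | cons j l ih =>
    rw [pot_cons, ih]
    by_cases h : (j :: l) = t
    · subst h
      rw [eH_self, if_pos List.suffix_rfl, if_neg, add_zero]
      intro hh
      have := hh.length_le
      simp at this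
    · rw [eH_ne h, zero_add]
      have : t <:+ j :: l ↔ t <:+ l := by
        rw [List.suffix_cons_iff]
        constructor
        · rintro (h' | h')
          · exact absurd h'.symm h
          · exact h'
        · exact Or.inr
      simp only [this]

theorem norm_J_eH (n : ℕ) (t : List ℕ) : ‖J n (eH t)‖ ≤ 1 := by
  rw [norm_J]
  refine max_le (norm_eH t).le (L_norm_le zero_le_one fun s _ => ?_)
  rw [pot_eH]
  split_ifs <;> simp

theorem one_le_norm_R_eH (n : ℕ) (t : List ℕ) : 1 ≤ ‖R n (eH t)‖ := by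
  have h1 := (R n (eH t)).le_opNorm (J n (eH t))
  rw [R_eH, Q_J, eH_self, norm_one] at h1
  have h2 := norm_J_eH n t
  have h3 := norm_nonneg (R n (eH t))
  nlinarith

theorem weak_null_H (φ : H →L[ℝ] ℝ) (t : List ℕ) :
    Tendsto (fun j => φ (eH (j :: t))) atTop (𝓝 0) := by
  obtain ⟨b, rfl⟩ := (InnerProductSpace.toDual ℝ H).surjective φ
  have h1 : ∀ j, (InnerProductSpace.toDual ℝ H b) (eH (j :: t)) = b (j :: t) := by
    intro j
    rw [InnerProductSpace.toDual_apply_apply, real_inner_comm, inner_eH]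
  simp only [h1]
  have h2 : Summable fun s => (b s) ^ 2 := (H_hasSum b).summable
  have h3 : Summable fun j : ℕ => (b (j :: t)) ^ 2 :=
    h2.comp_injective (i := fun j : ℕ => j :: t) (fun i j hij => by simpa using hij)
  have h4 := h3.tendsto_atTop_zero
  have h5 : Tendsto (fun j : ℕ => Real.sqrt ((b (j :: t)) ^ 2)) atTop (𝓝 0) := by
    have := (Real.continuous_sqrt.tendsto 0).comp h4
    rwa [Real.sqrt_zero] at this
  simp only [Real.sqrt_sq_eq_abs] at h5
  exact (tendsto_zero_iff_abs_tendsto_zero _).2 h5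

/-- the tree vectors in `X` -/
noncomputable def eX (n : ℕ) (t : List ℕ) : X := lp.single 2 n (R n (eH t))

/-- the branch vectors in `X` -/
noncomputable def sX (n : ℕ) (t : List ℕ) : X := lp.single 2 n (R n (bH t))

theorem sX_nil (n : ℕ) : sX n [] = eX n [] := rfl

theorem sX_cons (n j : ℕ) (t : List ℕ) : sX n (j :: t) = sX n t + eX n (j :: t) := by
  unfold sX eX
  rw [← lp.single_add, ← map_add, add_comm (bH t)]
  rfl

theorem norm_sX (n : ℕ) (t : List ℕ) (ht : t.length ≤ n) : ‖sX n t‖ ≤ 1 := by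
  unfold sX
  rw [lp.norm_single (by norm_num)]
  exact norm_R_bH ht

theorem norm_eX (n : ℕ) (t : List ℕ) : 1 ≤ ‖eX n t‖ := by
  unfold eX
  rw [lp.norm_single (by norm_num)]
  exact one_le_norm_R_eH n t

theorem weak_null_X (n : ℕ) (t : List ℕ) (Λ : StrongDual ℝ X) :
    Tendsto (fun j => Λ (eX n (j :: t))) atTop (𝓝 0) :=
  weak_null_H ((restr (E := XB) Λ n).comp (R n)) t

theorem not_aucRenormable_X : ¬ AUCRenormable X :=
  not_aucRenormable eX sX sX_nil (fun n j t => sX_cons n j t) norm_sX norm_eX weak_null_X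

theorem not_finiteDimensional_X : ¬ FiniteDimensional ℝ X :=
  not_finiteDimensional (fun j => eX 0 [j]) (fun j => norm_eX 0 [j]) (weak_null_X 0 [])

end Vale.Agent.H3.P069
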