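import Vale.Agent.H3.P069.Defs

namespace Vale.Agent.H3.P069

open scoped ENNReal
open NormedSpace

section Transfer
variable {E F : Type} [NormedAddCommGroup E] [NormedSpace ℝ E]
  [NormedAddCommGroup F] [NormedSpace ℝ F]

/-- Reflexivity transfers along a continuous linear equivalence. -/
theorem IsReflexive.of_equiv (hF : IsReflexive F) (e : E ≃L[ℝ] F) : IsReflexive E := by
  intro Φ
  -- the pullback of functionals
  let pb : StrongDual ℝ F →L[ℝ] StrongDual ℝ E :=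
    (ContinuousLinearMap.compL ℝ E F ℝ).flip (e : E →L[ℝ] F)
  obtain ⟨y, hy⟩ := hF (Φ.comp pb)
  refine ⟨e.symm y, ?_⟩
  ext φ
  have h := congrArg (fun Ψ => Ψ (φ.comp (e.symm : F →L[ℝ] E))) hy
  simp only [dual_def, ContinuousLinearMap.comp_apply] at h
  rw [dual_def]
  have h2 : pb (φ.comp (e.symm : F →L[ℝ] E)) = φ := by
    ext x
    simp [pb]
  rw [h2] at h
  exact h

/-- The dual of a reflexive space is reflexive. -/
theorem IsReflexive.dual (hE : IsReflexive E) : IsReflexive (StrongDual ℝ E) := by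
  intro Φ
  refine ⟨Φ.comp (inclusionInDoubleDual ℝ E), ?_⟩
  ext ξ
  obtain ⟨z, rfl⟩ := hE ξ
  simp [dual_def]

end Transfer

/-- Real Hilbert spaces are reflexive. -/
theorem isReflexive_hilbert {H : Type} [NormedAddCommGroup H] [InnerProductSpace ℝ H]
    [CompleteSpace H] : IsReflexive H := by
  intro Φ
  let ψ : StrongDual ℝ H := Φ.comp (innerSL ℝ : H →L[ℝ] H →L[ℝ] ℝ)
  obtain ⟨k, hk⟩ := (InnerProductSpace.toDual ℝ H).surjective ψ
  refine ⟨k, ?_⟩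
  ext φ
  obtain ⟨h, rfl⟩ := (InnerProductSpace.toDual ℝ H).surjective φ
  have h1 : ψ h = inner ℝ k h := by
    rw [← hk]; simp
  rw [dual_def]
  have h2 : ψ h = Φ (InnerProductSpace.toDual ℝ H h) := by
    simp only [ψ, ContinuousLinearMap.comp_apply]
    congr 1
  rw [← h2, h1]
  simp [real_inner_comm]

section LpSum
variable {E : ℕ → Type} [∀ n, NormedAddCommGroup (E n)] [∀ n, NormedSpace ℝ (E n)]

theorem lp2_norm_sq (x : lp E 2) : ‖x‖ ^ 2 = ∑' n, ‖x n‖ ^ 2 := by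
  have := lp.norm_rpow_eq_tsum (p := 2) (by norm_num) x
  simpa using this

theorem lp2_sum_le (x : lp E 2) (s : Finset ℕ) : ∑ n ∈ s, ‖x n‖ ^ 2 ≤ ‖x‖ ^ 2 := by
  have := lp.sum_rpow_le_norm_rpow (p := 2) (by norm_num) x s
  simpa using this

theorem lp2_hasSum (x : lp E 2) : HasSum (fun n => ‖x n‖ ^ 2) (‖x‖ ^ 2) := by
  have := lp.hasSum_norm (p := 2) (by norm_num) x
  simpa using this

/-- Cauchy-Schwarz for finitely many coordinates. -/
theorem lp2_cs (a : ℕ → ℝ) (x : lp E 2) (s : Finset ℕ) :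
    ∑ n ∈ s, |a n| * ‖x n‖ ≤ Real.sqrt (∑ n ∈ s, a n ^ 2) * ‖x‖ := by
  have h1 : (∑ n ∈ s, |a n| * ‖x n‖) ^ 2 ≤ (∑ n ∈ s, |a n| ^ 2) * ∑ n ∈ s, ‖x n‖ ^ 2 :=
    Finset.sum_mul_sq_le_sq_mul_sq s _ _
  have h2 : ∑ n ∈ s, ‖x n‖ ^ 2 ≤ ‖x‖ ^ 2 := lp2_sum_le x s
  have h3 : (0:ℝ) ≤ ∑ n ∈ s, a n ^ 2 := Finset.sum_nonneg fun i _ => sq_nonneg _
  have h4 : (∑ n ∈ s, |a n| * ‖x n‖) ^ 2 ≤ (Real.sqrt (∑ n ∈ s, a n ^ 2) * ‖x‖) ^ 2 := by
    rw [mul_pow, Real.sq_sqrt h3]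
    simp only [sq_abs] at h1
    exact h1.trans (mul_le_mul_of_nonneg_left h2 h3)
  exact le_of_sq_le_sq h4 (by positivity)

/-- the `n`-th restriction of a functional on the sum -/
noncomputable def restr (Λ : StrongDual ℝ (lp E 2)) (n : ℕ) : StrongDual ℝ (E n) :=
  Λ.comp (lp.singleContinuousLinearMap ℝ E 2 n)

theorem restr_apply (Λ : StrongDual ℝ (lp E 2)) (n : ℕ) (z : E n) :
    restr Λ n z = Λ (lp.single 2 n z) := rfl

theorem hasSum_restr (Λ : StrongDual ℝ (lp E 2)) (x : lp E 2) :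
    HasSum (fun n => restr Λ n (x n)) (Λ x) := by
  have h := (lp.hasSum_single (p := 2) (by norm_num) x)
  have := h.mapL Λ
  simpa [restr_apply] using this

theorem norm_sum_single_sq (z : ∀ n, E n) (s : Finset ℕ) :
    ‖∑ n ∈ s, lp.single 2 n (z n)‖ ^ 2 = ∑ n ∈ s, ‖z n‖ ^ 2 := by
  have := lp.norm_sum_single (p := 2) (by norm_num) z s
  simpa using this

theorem IsReflexive.lp2 (hE : ∀ n, IsReflexive (E n)) : IsReflexive (lp E 2) := by
  classical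
  -- the restrictions of a functional are square summable
  have key : ∀ (Λ : StrongDual ℝ (lp E 2)) (s : Finset ℕ),
      ∑ n ∈ s, ‖restr Λ n‖ ^ 2 ≤ ‖Λ‖ ^ 2 := by
    intro Λ s
    have hz : ∀ n, ∃ z : E n, ‖z‖ ≤ 1 ∧ restr Λ n z = ‖restr Λ n‖ := by
      intro n
      obtain ⟨ξ, hξ, hξ'⟩ := exists_dual_vector'' ℝ (restr Λ n)
      obtain ⟨z, rfl⟩ := hE n ξ
      refine ⟨z, ?_, by simpa [dual_def] using hξ'⟩
      have : ‖inclusionInDoubleDualLi ℝ z‖ = ‖z‖ := (inclusionInDoubleDualLi ℝ).norm_map z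
      rw [← this]
      exact hξ
    choose z hz1 hz2 using hz
    set v : lp E 2 := ∑ n ∈ s, lp.single 2 n (‖restr Λ n‖ • z n) with hv
    have hv1 : ‖v‖ ^ 2 ≤ ∑ n ∈ s, ‖restr Λ n‖ ^ 2 := by
      rw [hv, norm_sum_single_sq]
      refine Finset.sum_le_sum fun n _ => ?_
      rw [norm_smul, norm_norm, mul_pow]
      have : ‖z n‖ ^ 2 ≤ 1 := by
        have := hz1 n
        have h0 := norm_nonneg (z n)
        nlinarith
      nlinarith [sq_nonneg ‖restr Λ n‖]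
    have hv2 : Λ v = ∑ n ∈ s, ‖restr Λ n‖ ^ 2 := by
      rw [hv, map_sum]
      refine Finset.sum_congr rfl fun n _ => ?_
      rw [← restr_apply, map_smul, hz2]
      simp [sq]
    set S := ∑ n ∈ s, ‖restr Λ n‖ ^ 2 with hS
    have hS0 : 0 ≤ S := Finset.sum_nonneg fun i _ => sq_nonneg _
    have h1 : S ≤ ‖Λ‖ * ‖v‖ := by
      rw [← hv2]
      exact (le_abs_self _).trans (Λ.le_opNorm v)
    have h2 : S ^ 2 ≤ ‖Λ‖ ^ 2 * S := by
      calc S ^ 2 ≤ (‖Λ‖ * ‖v‖) ^ 2 := by gcongr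
        _ = ‖Λ‖ ^ 2 * ‖v‖ ^ 2 := by ring
        _ ≤ ‖Λ‖ ^ 2 * S := by gcongr
    rcases hS0.eq_or_lt with h | h
    · rw [← h]; positivity
    · nlinarith [sq_nonneg ‖Λ‖]
  intro Φ
  -- components of Φ
  let pr : ∀ n, StrongDual ℝ (E n) →L[ℝ] StrongDual ℝ (lp E 2) := fun n =>
    (ContinuousLinearMap.compL ℝ (lp E 2) (E n) ℝ).flip (lp.evalCLM ℝ E 2 n)
  have hpr : ∀ n (φ : StrongDual ℝ (E n)) (x : lp E 2), pr n φ x = φ (x n) := by
    intro n φ x; rfl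
  choose x hx using fun n => hE n (Φ.comp (pr n))
  have hx' : ∀ n (φ : StrongDual ℝ (E n)), Φ (pr n φ) = φ (x n) := by
    intro n φ
    have := congrArg (fun Ψ => Ψ φ) (hx n)
    simpa [dual_def] using this.symm
  -- square summability of x
  have hxs : ∀ s : Finset ℕ, ∑ n ∈ s, ‖x n‖ ^ 2 ≤ ‖Φ‖ ^ 2 := by
    intro s
    have hφ : ∀ n, ∃ φ : StrongDual ℝ (E n), ‖φ‖ ≤ 1 ∧ φ (x n) = ‖x n‖ := by
      intro n
      obtain ⟨φ, h1, h2⟩ := exists_dual_vector'' ℝ (x n)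
      exact ⟨φ, h1, by simpa using h2⟩
    choose φ hφ1 hφ2 using hφ
    set Λ : StrongDual ℝ (lp E 2) := ∑ n ∈ s, ‖x n‖ • pr n (φ n) with hΛ
    set S := ∑ n ∈ s, ‖x n‖ ^ 2 with hS
    have hS0 : 0 ≤ S := Finset.sum_nonneg fun i _ => sq_nonneg _
    have hΛn : ‖Λ‖ ≤ Real.sqrt S := by
      refine Λ.opNorm_le_bound (Real.sqrt_nonneg _) fun y => ?_
      have h1 : ‖Λ y‖ ≤ ∑ n ∈ s, |‖x n‖| * ‖y n‖ := by
        rw [hΛ, ContinuousLinearMap.sum_apply]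
        refine (norm_sum_le _ _).trans (Finset.sum_le_sum fun n _ => ?_)
        rw [ContinuousLinearMap.smul_apply, hpr, norm_smul, norm_norm, abs_norm]
        refine mul_le_mul_of_nonneg_left ?_ (norm_nonneg _)
        exact ((φ n).le_opNorm (y n)).trans
          (by nlinarith [norm_nonneg (y n), hφ1 n])
      exact h1.trans (lp2_cs _ y s)
    have hΦΛ : Φ Λ = S := by
      rw [hΛ, map_sum, hS]
      refine Finset.sum_congr rfl fun n _ => ?_
      rw [map_smul, hx', hφ2]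
      simp [sq]
    have h1 : S ≤ ‖Φ‖ * Real.sqrt S := by
      rw [← hΦΛ]
      refine (le_abs_self _).trans ((Φ.le_opNorm Λ).trans ?_)
      rw [hΦΛ]
      gcongr
    have hsq := Real.sq_sqrt hS0
    rcases (Real.sqrt_nonneg S).eq_or_lt with h | h
    · rw [← hsq, ← h]; nlinarith [sq_nonneg ‖Φ‖]
    · have : Real.sqrt S ≤ ‖Φ‖ := by
        by_contra hcon
        push Not at hcon
        nlinarith
      rw [← hsq]
      gcongr
  have hmem : Memℓp x 2 := by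
    refine memℓp_gen' (C := ‖Φ‖ ^ 2) fun s => ?_
    simpa using hxs s
  let X0 : lp E 2 := ⟨x, hmem⟩
  have hX0 : ∀ n, X0 n = x n := fun n => rfl
  refine ⟨X0, ?_⟩
  ext Λ
  rw [dual_def]
  -- summability of the restrictions
  have hsum : Summable (fun n => ‖restr Λ n‖ ^ 2) :=
    summable_of_sum_le (fun n => sq_nonneg _) (key Λ)
  -- approximation of Λ
  have happ : ∀ ε : ℝ, 0 < ε → ∃ s0 : Finset ℕ, ∀ s : Finset ℕ, s0 ⊆ s →
      ‖Λ - ∑ n ∈ s, pr n (restr Λ n)‖ ≤ ε := by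
    intro ε hε
    obtain ⟨s0, hs0⟩ := (summable_iff_vanishing_norm.1 hsum) (ε ^ 2) (by positivity)
    refine ⟨s0, fun s hs => ContinuousLinearMap.opNorm_le_bound _ hε.le fun y => ?_⟩
    have h1 : HasSum (fun n => restr Λ n (y n)) (Λ y) := hasSum_restr Λ y
    have h2 : (Λ - ∑ n ∈ s, pr n (restr Λ n)) y = Λ y - ∑ n ∈ s, restr Λ n (y n) := by
      simp [ContinuousLinearMap.sum_apply, hpr]
    rw [h2]
    have h3 : Filter.Tendsto (fun u : Finset ℕ => ∑ n ∈ u, restr Λ n (y n)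
        - ∑ n ∈ s, restr Λ n (y n)) Filter.atTop
        (nhds (Λ y - ∑ n ∈ s, restr Λ n (y n))) := by
      have := h1.sub_const (∑ n ∈ s, restr Λ n (y n))
      exact this
    refine le_of_tendsto h3.norm ?_
    filter_upwards [Filter.eventually_ge_atTop s] with u hu
    have hu' : s ⊆ u := hu
    rw [← Finset.sum_sdiff hu', add_sub_cancel_right]
    have hdisj : Disjoint (u \ s) s0 :=
      Finset.disjoint_of_subset_right hs Finset.sdiff_disjoint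
    have h4 := hs0 (u \ s) hdisj
    have h5 : ‖∑ n ∈ u \ s, restr Λ n (y n)‖ ≤ ∑ n ∈ u \ s, |‖restr Λ n‖| * ‖y n‖ := by
      refine (norm_sum_le _ _).trans (Finset.sum_le_sum fun n _ => ?_)
      rw [abs_norm]
      exact (restr Λ n).le_opNorm (y n)
    refine h5.trans ((lp2_cs _ y _).trans ?_)
    refine mul_le_mul_of_nonneg_right ?_ (norm_nonneg _)
    rw [Real.sqrt_le_left hε.le]
    exact ((le_abs_self _).trans h4.le)
  -- conclude
  have hlim : ∀ ε : ℝ, 0 < ε → |Λ X0 - Φ Λ| ≤ (‖X0‖ + ‖Φ‖) * ε := by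
    intro ε hε
    obtain ⟨s0, hs0⟩ := happ ε hε
    have h0 := hs0 s0 le_rfl
    set Λ' := ∑ n ∈ s0, pr n (restr Λ n) with hΛ'
    have e1 : Φ Λ' = Λ' X0 := by
      rw [hΛ', map_sum, ContinuousLinearMap.sum_apply]
      refine Finset.sum_congr rfl fun n _ => ?_
      rw [hx', hpr]
    have e2 : Λ X0 - Φ Λ = (Λ - Λ') X0 - Φ (Λ - Λ') := by
      rw [map_sub, e1, ContinuousLinearMap.sub_apply]; ring
    rw [e2]
    calc |(Λ - Λ') X0 - Φ (Λ - Λ')| ≤ |(Λ - Λ') X0| + |Φ (Λ - Λ')| := abs_sub _ _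
      _ ≤ ‖Λ - Λ'‖ * ‖X0‖ + ‖Φ‖ * ‖Λ - Λ'‖ :=
        add_le_add ((Λ - Λ').le_opNorm X0) (Φ.le_opNorm _)
      _ ≤ ε * ‖X0‖ + ‖Φ‖ * ε := by gcongr
      _ = _ := by ring
  have hnn : 0 ≤ ‖X0‖ + ‖Φ‖ := by positivity
  have : |Λ X0 - Φ Λ| ≤ 0 := by
    refine le_of_forall_pos_le_add fun ε hε => ?_
    have := hlim (ε / (‖X0‖ + ‖Φ‖ + 1)) (by positivity)
    refine this.trans ?_
    rw [zero_add, ← mul_div_assoc, div_le_iff₀ (by positivity)]
    nlinarith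
  have := abs_nonpos_iff.1 this
  linarith

end LpSum

end Vale.Agent.H3.P069
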