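import Vale.Agent.H3.P069.Reflex

namespace Vale.Agent.H3.P069

open scoped ENNReal
open NormedSpace

/-! ### Functions on the tree of finite sequences -/

/-- The branch potential: the sum of `c` over all suffixes of a list. -/
def pot (c : List ℕ → ℝ) : List ℕ → ℝ
  | [] => c []
  | (j :: l) => c (j :: l) + pot c l

theorem pot_nil (c : List ℕ → ℝ) : pot c [] = c [] := rfl
theorem pot_cons (c : List ℕ → ℝ) (j : ℕ) (l : List ℕ) :
    pot c (j :: l) = c (j :: l) + pot c l := rfl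

theorem pot_add (c d : List ℕ → ℝ) (t : List ℕ) : pot (c + d) t = pot c t + pot d t := by
  induction t with
  | nil => simp [pot_nil]
  | cons j l ih => simp only [pot_cons, ih, Pi.add_apply]; ring

theorem pot_smul (r : ℝ) (c : List ℕ → ℝ) (t : List ℕ) : pot (r • c) t = r * pot c t := by
  induction t with
  | nil => simp [pot_nil]
  | cons j l ih => simp only [pot_cons, ih, Pi.smul_apply, smul_eq_mul]; ring

theorem pot_neg (c : List ℕ → ℝ) (t : List ℕ) : pot (-c) t = -pot c t := by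
  induction t with
  | nil => simp [pot_nil]
  | cons j l ih => simp only [pot_cons, ih, Pi.neg_apply]; ring

/-- Increments of a function along the tree. -/
def inc (E : List ℕ → ℝ) : List ℕ → ℝ
  | [] => E []
  | (j :: l) => E (j :: l) - E l

theorem pot_inc (E : List ℕ → ℝ) (t : List ℕ) : pot (inc E) t = E t := by
  induction t with
  | nil => rfl
  | cons j l ih => rw [pot_cons, ih]; simp [inc]

/-- The truncated potential. -/
noncomputable def trunc (f ψ : List ℕ → ℝ) (t : List ℕ) : ℝ :=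
  if pot f t ≤ 0 then max (pot ψ t) 0 else min (pot ψ t) 0

/-- The correction. -/
noncomputable def corr (f ψ : List ℕ → ℝ) : List ℕ → ℝ := inc (trunc f ψ)

theorem abs_max_sub_max_zero (a b : ℝ) : |max a 0 - max b 0| ≤ |a - b| :=
  abs_max_sub_max_le_abs a b 0

theorem abs_min_sub_min_zero (a b : ℝ) : |min a 0 - min b 0| ≤ |a - b| := by
  rcases le_total a 0 with ha | ha <;> rcases le_total b 0 with hb | hb <;>
    simp only [min_eq_left, min_eq_right, ha, hb] <;>
    rw [abs_le] <;> constructor <;> (cases abs_cases (a - b) <;> linarith)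

theorem abs_trunc_le (f ψ : List ℕ → ℝ) (t : List ℕ) : |trunc f ψ t| ≤ |pot ψ t| := by
  unfold trunc
  split_ifs
  · rw [abs_of_nonneg (le_max_right _ _)]
    exact max_le (le_abs_self _) (abs_nonneg _)
  · rw [abs_of_nonpos (min_le_right _ _), neg_le]
    exact le_min (neg_abs_le _) (by simp)

section Star
variable {A : Set (List ℕ)} (hA : ∀ j l, (j :: l) ∈ A → l ∈ A)
  {f ψ : List ℕ → ℝ} (hf : ∀ t, t ∉ A → f t = 0) (hψ : ∀ t, t ∈ A → ψ t = 0)
include hA

include hψ in
theorem pot_eq_zero : ∀ t, t ∈ A → pot ψ t = 0 := by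
  intro t
  induction t with
  | nil => intro h; rw [pot_nil, hψ _ h]
  | cons j l ih => intro h; rw [pot_cons, hψ _ h, ih (hA _ _ h), add_zero]

omit hA in
include hf in
theorem pot_eq_tail (j : ℕ) (l : List ℕ) (h : (j :: l) ∉ A) : pot f (j :: l) = pot f l := by
  rw [pot_cons, hf _ h, zero_add]

include hψ in
theorem trunc_eq_zero (t : List ℕ) (h : t ∈ A) : trunc f ψ t = 0 := by
  unfold trunc
  rw [pot_eq_zero hA hψ t h]
  simp

include hψ in
theorem corr_eq_zero (t : List ℕ) (h : t ∈ A) : corr f ψ t = 0 := by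
  cases t with
  | nil => simp [corr, inc, trunc_eq_zero hA hψ _ h]
  | cons j l => simp [corr, inc, trunc_eq_zero hA hψ _ h, trunc_eq_zero hA hψ _ (hA _ _ h)]

include hf hψ in
theorem abs_corr_le (t : List ℕ) : |corr f ψ t| ≤ |ψ t| := by
  by_cases h : t ∈ A
  · rw [corr_eq_zero hA hψ t h]; simp
  · cases t with
    | nil => exact abs_trunc_le f ψ []
    | cons j l =>
      have hp := pot_eq_tail hf j l h
      have e : ψ (j :: l) = pot ψ (j :: l) - pot ψ l := by rw [pot_cons]; ring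
      rw [e]
      change |trunc f ψ (j :: l) - trunc f ψ l| ≤ _
      by_cases hc : pot f l ≤ 0
      · have e1 : trunc f ψ (j :: l) = max (pot ψ (j :: l)) 0 := by
          unfold trunc; rw [hp, if_pos hc]
        have e2 : trunc f ψ l = max (pot ψ l) 0 := by
          unfold trunc; rw [if_pos hc]
        rw [e1, e2]
        exact abs_max_sub_max_zero _ _
      · have e1 : trunc f ψ (j :: l) = min (pot ψ (j :: l)) 0 := by
          unfold trunc; rw [hp, if_neg hc]
        have e2 : trunc f ψ l = min (pot ψ l) 0 := by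
          unfold trunc; rw [if_neg hc]
        rw [e1, e2]
        exact abs_min_sub_min_zero _ _

end Star

theorem corr_sub_corr (f ψ : List ℕ → ℝ) (t : List ℕ) :
    corr f ψ t - corr f (-ψ) t = ψ t := by
  have key : ∀ s, trunc f ψ s - trunc f (-ψ) s = pot ψ s := by
    intro s
    unfold trunc
    rw [pot_neg]
    split_ifs
    · cases max_cases (pot ψ s) 0 <;> cases max_cases (-pot ψ s) 0 <;> linarith
    · cases min_cases (pot ψ s) 0 <;> cases min_cases (-pot ψ s) 0 <;> linarith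
  cases t with
  | nil => exact key []
  | cons j l =>
    have h1 := key (j :: l)
    have h2 := key l
    simp only [corr, inc]
    rw [pot_cons] at h1
    linarith

theorem abs_pot_add_corr_le (f ψ : List ℕ → ℝ) (t : List ℕ) :
    |pot f t + pot (corr f ψ) t| ≤ max |pot f t| |pot ψ t| := by
  rw [corr, pot_inc]
  unfold trunc
  split_ifs with h
  · rw [abs_le]
    constructor
    · have : -(max |pot f t| |pot ψ t|) ≤ -|pot f t| := neg_le_neg (le_max_left _ _)
      have h1 : -|pot f t| ≤ pot f t := neg_abs_le _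
      have h2 : 0 ≤ max (pot ψ t) 0 := le_max_right _ _
      linarith
    · have h3 : max (pot ψ t) 0 ≤ |pot ψ t| := max_le (le_abs_self _) (abs_nonneg _)
      have : |pot ψ t| ≤ max |pot f t| |pot ψ t| := le_max_right _ _
      linarith
  · push Not at h
    rw [abs_le]
    constructor
    · have h3 : -|pot ψ t| ≤ min (pot ψ t) 0 := le_min (neg_abs_le _) (by simp)
      have : -(max |pot f t| |pot ψ t|) ≤ -|pot ψ t| := neg_le_neg (le_max_right _ _)
      linarith
    · have h1 : pot f t ≤ |pot f t| := le_abs_self _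
      have h2 : min (pot ψ t) 0 ≤ 0 := min_le_right _ _
      have : |pot f t| ≤ max |pot f t| |pot ψ t| := le_max_left _ _
      linarith

/-! ### The Hilbert space and the renormed spaces -/

/-- Square summable functions on the tree. -/
abbrev H : Type := lp (fun _ : List ℕ => ℝ) 2

/-- Bounded functions on the tree. -/
abbrev B : Type := lp (fun _ : List ℕ => ℝ) ∞

theorem H_hasSum (c : H) : HasSum (fun t => (c t) ^ 2) (‖c‖ ^ 2) := by
  have := lp.hasSum_norm (p := 2) (by norm_num) c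
  simpa using this

theorem H_abs_le (c : H) (t : List ℕ) : |c t| ≤ ‖c‖ := by
  have := lp.norm_apply_le_norm (p := 2) (by norm_num) c t
  simpa using this

theorem H_norm_sq_le (c : H) {S : ℝ} {b : List ℕ → ℝ} (hb : HasSum b S)
    (h : ∀ t, (c t) ^ 2 ≤ b t) : ‖c‖ ^ 2 ≤ S :=
  hasSum_le h (H_hasSum c) hb

theorem mem_of_abs_le {g : List ℕ → ℝ} (ψ : H) (h : ∀ t, |g t| ≤ |ψ t|) :
    Memℓp g 2 := by
  refine memℓp_gen ?_
  have hs : Summable fun t => (ψ t) ^ 2 := (H_hasSum ψ).summable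
  refine Summable.of_nonneg_of_le (fun t => by positivity) (fun t => ?_) hs
  have : |g t| ^ 2 ≤ |ψ t| ^ 2 := pow_le_pow_left₀ (abs_nonneg _) (h t) 2
  simpa using this

theorem abs_pot_le (c : H) (t : List ℕ) : |pot c t| ≤ (t.length + 1) * ‖c‖ := by
  induction t with
  | nil => rw [pot_nil]; simpa using H_abs_le c []
  | cons j l ih =>
    rw [pot_cons, List.length_cons]
    push_cast
    calc |c (j :: l) + pot c l| ≤ |c (j :: l)| + |pot c l| := abs_add_le _ _
      _ ≤ ‖c‖ + (l.length + 1) * ‖c‖ := add_le_add (H_abs_le c _) ih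
      _ = _ := by ring

/-- The potential truncated at level `n`, as a map to bounded functions. -/
noncomputable def potFun (n : ℕ) (c : List ℕ → ℝ) (t : List ℕ) : ℝ :=
  if t.length ≤ n then pot c t else 0

theorem potFun_bound (n : ℕ) (c : H) (t : List ℕ) : ‖potFun n c t‖ ≤ (n + 1) * ‖c‖ := by
  unfold potFun
  split_ifs with h
  · rw [Real.norm_eq_abs]
    refine (abs_pot_le c t).trans ?_
    have : (t.length : ℝ) ≤ n := by exact_mod_cast h
    gcongr
  · simp; positivity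

theorem potFun_mem (n : ℕ) (c : H) : Memℓp (potFun n c) ∞ :=
  memℓp_infty ⟨(n + 1) * ‖c‖, by rintro _ ⟨t, rfl⟩; exact potFun_bound n c t⟩

/-- The potential map. -/
noncomputable def L (n : ℕ) : H →L[ℝ] B :=
  LinearMap.mkContinuous
    { toFun := fun c => (⟨potFun n c, potFun_mem n c⟩ : B)
      map_add' := by
        intro c d
        ext t
        change potFun n (c + d : H) t = potFun n c t + potFun n d t
        unfold potFun
        split_ifs
        · rw [lp.coeFn_add]; exact pot_add _ _ _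
        · simp
      map_smul' := by
        intro r c
        ext t
        change potFun n (r • c : H) t = r * potFun n c t
        unfold potFun
        split_ifs
        · rw [lp.coeFn_smul]; exact pot_smul _ _ _
        · simp }
    (n + 1)
    (by
      intro c
      refine lp.norm_le_of_forall_le (by positivity) fun t => ?_
      exact potFun_bound n c t)

theorem L_apply (n : ℕ) (c : H) (t : List ℕ) : (L n c) t = potFun n c t := rfl

theorem L_norm_le {n : ℕ} {c : H} {M : ℝ} (hM : 0 ≤ M)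
    (h : ∀ t : List ℕ, t.length ≤ n → |pot c t| ≤ M) : ‖L n c‖ ≤ M := by
  refine lp.norm_le_of_forall_le hM fun t => ?_
  rw [L_apply]
  unfold potFun
  split_ifs with ht
  · exact h t ht
  · simpa using hM

theorem abs_pot_le_L {n : ℕ} (c : H) {t : List ℕ} (ht : t.length ≤ n) :
    |pot c t| ≤ ‖L n c‖ := by
  have := lp.norm_apply_le_norm (p := ∞) (by norm_num) (L n c) t
  rw [L_apply] at this
  simpa [potFun, ht] using this

/-- The space of square summable functions normed by the maximum of the `2`-norm and the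
supremum of the potential up to level `n`. -/
abbrev Z (n : ℕ) : Type := ((L n).toLinearMap.graph : Submodule ℝ (H × B))

/-- The parametrisation of `Z n` by `H`. -/
noncomputable def J (n : ℕ) : H →L[ℝ] Z n :=
  ContinuousLinearMap.codRestrict ((ContinuousLinearMap.id ℝ H).prod (L n)) _
    (fun c => by simp [LinearMap.mem_graph_iff])

/-- First coordinate. -/
noncomputable def Q (n : ℕ) : Z n →L[ℝ] H :=
  (ContinuousLinearMap.fst ℝ H B).comp (Submodule.subtypeL _)

theorem Q_J (n : ℕ) (c : H) : Q n (J n c) = c := rfl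

theorem J_Q (n : ℕ) (z : Z n) : J n (Q n z) = z := by
  apply Subtype.ext
  have hz := z.2
  rw [LinearMap.mem_graph_iff] at hz
  apply Prod.ext
  · rfl
  · exact hz.symm

theorem norm_J (n : ℕ) (c : H) : ‖J n c‖ = max ‖c‖ ‖L n c‖ := rfl

/-- `Z n` is linearly homeomorphic to `H`. -/
noncomputable def eqv (n : ℕ) : Z n ≃L[ℝ] H :=
  ContinuousLinearEquiv.equivOfInverse (Q n) (J n) (J_Q n) (Q_J n)

theorem isReflexive_Z (n : ℕ) : IsReflexive (Z n) :=
  IsReflexive.of_equiv isReflexive_hilbert (eqv n)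

/-- The building blocks. -/
abbrev XB (n : ℕ) : Type := StrongDual ℝ (Z n)

/-- The space. -/
abbrev X : Type := lp XB 2

theorem isReflexive_X : IsReflexive X :=
  IsReflexive.lp2 fun n => (isReflexive_Z n).dual

/-! ### The block inequality -/

section Block
variable {A : Set (List ℕ)} (hA : ∀ j l, (j :: l) ∈ A → l ∈ A)
include hA

theorem star_ineq (n : ℕ) (f ψ : H) (hf : ∀ t, t ∉ A → f t = 0) (hψ : ∀ t, t ∈ A → ψ t = 0) :
    ∃ g : H, (∀ t, t ∈ A → g t = 0) ∧ (∀ t, g t = corr f ψ t) ∧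
      ‖J n (f + g)‖ ^ 2 ≤ ‖J n f‖ ^ 2 + ‖J n ψ‖ ^ 2 := by
  have habs := abs_corr_le hA hf hψ
  refine ⟨⟨corr f ψ, mem_of_abs_le ψ habs⟩, fun t ht => corr_eq_zero hA hψ t ht,
    fun t => rfl, ?_⟩
  set g : H := ⟨corr f ψ, mem_of_abs_le ψ habs⟩ with hg
  have hgt : ∀ t, g t = corr f ψ t := fun t => rfl
  have hgfun : (g : List ℕ → ℝ) = corr f ψ := rfl
  have h1 : ‖f + g‖ ^ 2 ≤ ‖f‖ ^ 2 + ‖ψ‖ ^ 2 := by
    refine H_norm_sq_le (f + g) ((H_hasSum f).add (H_hasSum ψ)) fun t => ?_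
    rw [lp.coeFn_add]
    change (f t + g t) ^ 2 ≤ _
    have hsq : (g t) ^ 2 ≤ (ψ t) ^ 2 := by
      rw [← sq_abs, ← sq_abs (ψ t)]
      rw [hgt]
      exact pow_le_pow_left₀ (abs_nonneg _) (habs t) 2
    by_cases ht : t ∈ A
    · rw [hgt, corr_eq_zero hA hψ t ht]
      nlinarith [sq_nonneg (ψ t)]
    · rw [hf t ht]
      nlinarith
  have h2 : ‖L n (f + g)‖ ≤ max ‖L n f‖ ‖L n ψ‖ := by
    refine L_norm_le (le_max_of_le_left (norm_nonneg _)) fun t ht => ?_
    rw [lp.coeFn_add, pot_add, hgfun]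
    exact (abs_pot_add_corr_le f ψ t).trans
      (max_le_max (abs_pot_le_L f ht) (abs_pot_le_L ψ ht))
  have e1 : ‖f‖ ≤ ‖J n f‖ := le_max_left _ _
  have e2 : ‖L n f‖ ≤ ‖J n f‖ := le_max_right _ _
  have e3 : ‖ψ‖ ≤ ‖J n ψ‖ := le_max_left _ _
  have e4 : ‖L n ψ‖ ≤ ‖J n ψ‖ := le_max_right _ _
  rw [norm_J n (f + g)]
  rcases le_total ‖f + g‖ ‖L n (f + g)‖ with h | h
  · rw [max_eq_right h]
    rcases le_total ‖L n f‖ ‖L n ψ‖ with h' | h'
    · rw [max_eq_right h'] at h2
      have : ‖L n (f + g)‖ ^ 2 ≤ ‖J n ψ‖ ^ 2 := by gcongr; exact h2.trans e4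
      nlinarith [sq_nonneg ‖J n f‖]
    · rw [max_eq_left h'] at h2
      have : ‖L n (f + g)‖ ^ 2 ≤ ‖J n f‖ ^ 2 := by gcongr; exact h2.trans e2
      nlinarith [sq_nonneg ‖J n ψ‖]
  · rw [max_eq_left h]
    refine h1.trans ?_
    gcongr

end Block

open Classical in
/-- Restriction of a function to a set of nodes. -/
noncomputable def restrFun (A : Set (List ℕ)) (c : List ℕ → ℝ) (t : List ℕ) : ℝ :=
  if t ∈ A then c t else 0

theorem abs_restrFun_le (A : Set (List ℕ)) (c : List ℕ → ℝ) (t : List ℕ) :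
    |restrFun A c t| ≤ |c t| := by
  unfold restrFun
  split_ifs <;> simp

/-- Restriction of an element of `H` to a set of nodes. -/
noncomputable def P (A : Set (List ℕ)) (c : H) : H :=
  ⟨restrFun A c, mem_of_abs_le c (abs_restrFun_le A c)⟩

theorem P_mem {A : Set (List ℕ)} (c : H) {t : List ℕ} (h : t ∈ A) : P A c t = c t := by
  change restrFun A c t = _
  simp [restrFun, h]

theorem P_not_mem {A : Set (List ℕ)} (c : H) {t : List ℕ} (h : t ∉ A) : P A c t = 0 := by
  change restrFun A c t = _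
  simp [restrFun, h]

theorem norm_P_le (A : Set (List ℕ)) (c : H) : ‖P A c‖ ≤ ‖c‖ := by
  have : ‖P A c‖ ^ 2 ≤ ‖c‖ ^ 2 := by
    refine H_norm_sq_le _ (H_hasSum c) fun t => ?_
    rw [← sq_abs, ← sq_abs (c t)]
    exact pow_le_pow_left₀ (abs_nonneg _) (abs_restrFun_le A c t) 2
  exact le_of_sq_le_sq this (norm_nonneg _)

theorem norm_J_P_le {A : Set (List ℕ)} (hA : ∀ j l, (j :: l) ∈ A → l ∈ A) (n : ℕ) (c : H) :
    ‖J n (P A c)‖ ≤ ‖J n c‖ := by
  rw [norm_J, norm_J]
  refine max_le_max (norm_P_le A c) (L_norm_le (norm_nonneg _) fun t => ?_)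
  have hpot : ∀ t, t ∈ A → pot (P A c) t = pot c t := by
    intro t
    induction t with
    | nil => intro h; rw [pot_nil, pot_nil, P_mem c h]
    | cons j l ih => intro h; rw [pot_cons, pot_cons, P_mem c h, ih (hA _ _ h)]
  induction t with
  | nil =>
    intro h
    by_cases h0 : [] ∈ A
    · rw [hpot _ h0]; exact abs_pot_le_L c h
    · rw [pot_nil, P_not_mem c h0]; simp
  | cons j l ih =>
    intro h
    by_cases h0 : (j :: l) ∈ A
    · rw [hpot _ h0]; exact abs_pot_le_L c h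
    · rw [pot_cons, P_not_mem c h0, zero_add]
      exact ih (by rw [List.length_cons] at h; omega)

theorem exists_near_max {E : Type} [NormedAddCommGroup E] [NormedSpace ℝ E]
    (x : StrongDual ℝ E) {ρ : ℝ} (hρ0 : 0 ≤ ρ) (hρ : ρ < 1) :
    ∃ z : E, ‖z‖ ≤ 1 ∧ ρ * ‖x‖ ≤ x z := by
  rcases (norm_nonneg x).eq_or_lt with h | h
  · refine ⟨0, by simp, by rw [← h]; simp⟩
  · obtain ⟨z, hz1, hz2⟩ := x.exists_lt_apply_of_lt_opNorm (r := ρ * ‖x‖) (by nlinarith)
    rcases le_total 0 (x z) with hx | hx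
    · exact ⟨z, hz1.le, by rw [Real.norm_eq_abs, abs_of_nonneg hx] at hz2; exact hz2.le⟩
    · refine ⟨-z, by rw [norm_neg]; exact hz1.le, ?_⟩
      rw [Real.norm_eq_abs, abs_of_nonpos hx] at hz2
      rw [map_neg]; exact hz2.le

/-- `x` only sees the coordinates in `A`. -/
def Near (A : Set (List ℕ)) {n : ℕ} (x : XB n) : Prop :=
  ∀ h : H, (∀ t, t ∈ A → h t = 0) → x (J n h) = 0

/-- `y` only sees the coordinates outside `A`. -/
def Far (A : Set (List ℕ)) {n : ℕ} (y : XB n) : Prop :=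
  ∀ h : H, (∀ t, t ∉ A → h t = 0) → y (J n h) = 0

theorem block_main {A : Set (List ℕ)} (hA : ∀ j l, (j :: l) ∈ A → l ∈ A) {n : ℕ}
    {x y : XB n} (hx : Near A x) (hy : Far A y) (h k : H) (a b : ℝ) (ha : 0 ≤ a) (hb : 0 ≤ b)
    (hh : ‖J n h‖ ≤ 1) (hk : ‖J n k‖ ≤ 1) :
      2 * a * x (J n h) + b / 2 * y (J n k)
        ≤ (‖x + y‖ + ‖x - y‖) * Real.sqrt (a ^ 2 + b ^ 2) := by
  set f : H := a • P A h with hf
  set ψ : H := (b / 2) • (k - P A k) with hψ
  have hf0 : ∀ t, t ∉ A → f t = 0 := by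
    intro t ht
    rw [hf, lp.coeFn_smul, Pi.smul_apply, P_not_mem h ht, smul_zero]
  have hψ0 : ∀ t, t ∈ A → ψ t = 0 := by
    intro t ht
    rw [hψ, lp.coeFn_smul, Pi.smul_apply, lp.coeFn_sub]
    change (b / 2) • (k t - P A k t) = 0
    rw [P_mem k ht, sub_self, smul_zero]
  have hψ0' : ∀ t, t ∈ A → (-ψ : H) t = 0 := by
    intro t ht
    rw [lp.coeFn_neg]
    change -(ψ t) = 0
    rw [hψ0 t ht, neg_zero]
  obtain ⟨g, hg0, hg, hgn⟩ := star_ineq hA n f ψ hf0 hψ0
  obtain ⟨g', hg0', hg', hgn'⟩ := star_ineq hA n f (-ψ) hf0 hψ0'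
  rw [map_neg, norm_neg] at hgn'
  have hgg : g - g' = ψ := by
    ext t
    rw [lp.coeFn_sub]
    change g t - g' t = ψ t
    rw [hg, hg']
    have : ((-ψ : H) : List ℕ → ℝ) = -(ψ : List ℕ → ℝ) := lp.coeFn_neg ψ
    rw [this]
    exact corr_sub_corr f ψ t
  have hxg : x (J n g) = 0 := hx g hg0
  have hxg' : x (J n g') = 0 := hx g' hg0'
  have hyf : y (J n f) = 0 := hy f hf0
  have hxh : x (J n (P A h)) = x (J n h) := by
    have : x (J n (h - P A h)) = 0 := by
      apply hx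
      intro t ht
      rw [lp.coeFn_sub]
      change h t - P A h t = 0
      rw [P_mem h ht, sub_self]
    rw [map_sub, map_sub] at this
    linarith
  have hyk : y (J n (P A k)) = 0 := hy _ fun t ht => P_not_mem k ht
  have hxf : x (J n f) = a * x (J n h) := by
    rw [hf, map_smul, map_smul, hxh, smul_eq_mul]
  have hyψ : y (J n ψ) = b / 2 * y (J n k) := by
    rw [hψ, map_smul, map_smul, map_sub, map_sub, hyk, sub_zero, smul_eq_mul]
  have hyg : y (J n g) - y (J n g') = y (J n ψ) := by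
    rw [← map_sub, ← map_sub, hgg]
  have hnf : ‖J n f‖ ≤ a := by
    rw [hf, map_smul, norm_smul, Real.norm_eq_abs, abs_of_nonneg ha]
    have := (norm_J_P_le hA n h).trans hh
    calc a * ‖J n (P A h)‖ ≤ a * 1 := mul_le_mul_of_nonneg_left this ha
      _ = a := mul_one a
  have hnψ : ‖J n ψ‖ ≤ b := by
    rw [hψ, map_smul, norm_smul, Real.norm_eq_abs, abs_of_nonneg (by positivity)]
    have h1 := (norm_J_P_le hA n k).trans hk
    have h2 : ‖J n (k - P A k)‖ ≤ 2 := by
      rw [map_sub]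
      exact (norm_sub_le _ _).trans (by linarith)
    calc b / 2 * ‖J n (k - P A k)‖ ≤ b / 2 * 2 := mul_le_mul_of_nonneg_left h2 (by positivity)
      _ = b := by ring
  have hab : ‖J n f‖ ^ 2 + ‖J n ψ‖ ^ 2 ≤ a ^ 2 + b ^ 2 :=
    add_le_add (pow_le_pow_left₀ (norm_nonneg _) hnf 2) (pow_le_pow_left₀ (norm_nonneg _) hnψ 2)
  have hN1 : ‖J n (f + g)‖ ≤ Real.sqrt (a ^ 2 + b ^ 2) :=
    Real.le_sqrt_of_sq_le (hgn.trans hab)
  have hN2 : ‖J n (f + g')‖ ≤ Real.sqrt (a ^ 2 + b ^ 2) :=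
    Real.le_sqrt_of_sq_le (hgn'.trans hab)
  have hv1 : (x + y) (J n (f + g)) ≤ ‖x + y‖ * Real.sqrt (a ^ 2 + b ^ 2) :=
    ((le_abs_self _).trans ((x + y).le_opNorm _)).trans
      (mul_le_mul_of_nonneg_left hN1 (norm_nonneg _))
  have hv2 : (x - y) (J n (f + g')) ≤ ‖x - y‖ * Real.sqrt (a ^ 2 + b ^ 2) :=
    ((le_abs_self _).trans ((x - y).le_opNorm _)).trans
      (mul_le_mul_of_nonneg_left hN2 (norm_nonneg _))
  have hval : (x + y) (J n (f + g)) + (x - y) (J n (f + g'))
      = 2 * a * x (J n h) + b / 2 * y (J n k) := by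
    have e1 : (x + y) (J n (f + g)) = x (J n f) + x (J n g) + (y (J n f) + y (J n g)) := by
      rw [add_apply, (J n).map_add, x.map_add, y.map_add]
    have e2 : (x - y) (J n (f + g')) = x (J n f) + x (J n g') - (y (J n f) + y (J n g')) := by
      rw [sub_apply, (J n).map_add, x.map_add, y.map_add]
    rw [e1, e2, hxg, hxg', hyf, hxf, ← hyψ, ← hyg]
    ring
  rw [← hval, add_mul]
  exact add_le_add hv1 hv2

theorem real_opt {a b S : ℝ} (ha : 0 ≤ a) (hb : 0 ≤ b) (hS0 : 0 ≤ S)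
    (hm : ∀ ρ : ℝ, 0 ≤ ρ → ρ < 1 →
      2 * (2 * (ρ * a)) * (ρ * a) + (ρ * b / 2) / 2 * (ρ * b)
        ≤ S * Real.sqrt ((2 * (ρ * a)) ^ 2 + (ρ * b / 2) ^ 2)) :
    4 * a ^ 2 + b ^ 2 / 4 ≤ S ^ 2 := by
  have opt : ∀ ρ : ℝ, 0 ≤ ρ → ρ < 1 → ρ ^ 2 * (4 * a ^ 2 + b ^ 2 / 4) ≤ S ^ 2 := by
    intro ρ h0 h1
    have hm' := hm ρ h0 h1
    set K := (2 * (ρ * a)) ^ 2 + (ρ * b / 2) ^ 2 with hK
    have hK0 : 0 ≤ K := by positivity
    have hKle : K ≤ S * Real.sqrt K := by
      refine le_trans (le_of_eq ?_) hm'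
      rw [hK]; ring
    have hsq := Real.sq_sqrt hK0
    have hle : Real.sqrt K ≤ S := by
      rcases (Real.sqrt_nonneg K).eq_or_lt with h | h
      · rw [← h]; exact hS0
      · by_contra hcon
        push Not at hcon
        nlinarith
    have h2 : K ≤ S ^ 2 := by
      rw [← hsq]
      exact pow_le_pow_left₀ (Real.sqrt_nonneg _) hle 2
    have h3 : ρ ^ 2 * (4 * a ^ 2 + b ^ 2 / 4) = K := by rw [hK]; ring
    rw [h3]; exact h2
  set K := 4 * a ^ 2 + b ^ 2 / 4 with hK
  by_contra hcon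
  push Not at hcon
  have hKpos : 0 < K := lt_of_le_of_lt (sq_nonneg S) hcon
  have hr0 : 0 ≤ S ^ 2 / K := by positivity
  have hr1 : S ^ 2 / K < 1 := (div_lt_one hKpos).2 hcon
  have hρ := opt (Real.sqrt ((S ^ 2 / K + 1) / 2)) (Real.sqrt_nonneg _)
    (by rw [Real.sqrt_lt' one_pos]; linarith)
  rw [Real.sq_sqrt (by positivity)] at hρ
  have : (S ^ 2 / K + 1) / 2 * K = (S ^ 2 + K) / 2 := by
    field_simp
  rw [this] at hρ
  linarith

theorem block_ineq {A : Set (List ℕ)} (hA : ∀ j l, (j :: l) ∈ A → l ∈ A) {n : ℕ}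
    {x y : XB n} (hx : Near A x) (hy : Far A y) :
    ‖x‖ ^ 2 + ‖y‖ ^ 2 / 16 ≤ (‖x + y‖ ^ 2 + ‖x - y‖ ^ 2) / 2 := by
  have h1 : 4 * ‖x‖ ^ 2 + ‖y‖ ^ 2 / 4 ≤ (‖x + y‖ + ‖x - y‖) ^ 2 := by
    refine real_opt (norm_nonneg x) (norm_nonneg y) (by positivity) fun ρ h0 h1 => ?_
    obtain ⟨z, hz1, hz2⟩ := exists_near_max x h0 h1
    obtain ⟨w, hw1, hw2⟩ := exists_near_max y h0 h1
    have hX := norm_nonneg x
    have hY := norm_nonneg y
    have hm := block_main hA hx hy (Q n z) (Q n w) (2 * (ρ * ‖x‖)) (ρ * ‖y‖ / 2)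
      (by positivity) (by positivity) (by rw [J_Q]; exact hz1) (by rw [J_Q]; exact hw1)
    rw [J_Q, J_Q] at hm
    refine le_trans (add_le_add ?_ ?_) hm
    · exact mul_le_mul_of_nonneg_left hz2 (by positivity)
    · exact mul_le_mul_of_nonneg_left hw2 (by positivity)
  have h2 : (‖x + y‖ + ‖x - y‖) ^ 2 ≤ 2 * (‖x + y‖ ^ 2 + ‖x - y‖ ^ 2) := by
    nlinarith [sq_nonneg (‖x + y‖ - ‖x - y‖)]
  linarith

end Vale.Agent.H3.P069
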